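import Vale.Agent.P088.R2.H321.ZI.PU2
import Vale.Agent.P088.R2.H406.U.Bd

/-!
# P088, zone I: the fourth order terms of the weight `φ(u) + e^u Ψ(|x - y|²)`
-/

open Set Filter
open scoped ContDiff Topology

noncomputable section

namespace Vale.Agent.P088.R2.H406.U

open Vale.Agent.P088.LR Vale.Agent.P088.HY
open Vale.Agent.P088.R2.H644
open Vale.Agent.P088.R2.H406.Z
open Vale.Agent.P088.R2.H205.CP (lx ly)
open Vale.Agent.P088.R2.H321.ZI (Fn FnD W0 LX LY lx_W ly_W)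

variable {n : ℕ}

/-- `dd` of a finite sum. -/
theorem dd_sumf {F : Fin n → VV n → ℝ} (hF : ∀ i, ContDiff ℝ ∞ (F i)) (a : VV n) :
    dd a (fun z => ∑ i, F i z) = fun z => ∑ i, dd a (F i) z := by
  funext z
  exact dd_sum Finset.univ (F := F) fun i _ => (HD_of (hF i) a z).d

/-- The double Laplacians. -/
theorem lap_le {W : VV n → ℝ} (hW : ContDiff ℝ ∞ W) {z : VV n} {B : ℝ}
    (h : ∀ a ∈ Dir n, ∀ b ∈ Dir n, |dd a (dd a (dd b (dd b W))) z| ≤ B)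
    (s t : Fin n → VV n) (hs : ∀ i, s i ∈ Dir n) (ht : ∀ i, t i ∈ Dir n) :
    |∑ i, dd (s i) (dd (s i) (fun z => ∑ l, dd (t l) (dd (t l) W) z)) z| ≤ n ^ 2 * B := by
  have e : ∀ i, dd (s i) (dd (s i) (fun z => ∑ l, dd (t l) (dd (t l) W) z)) z =
      ∑ l, dd (s i) (dd (s i) (dd (t l) (dd (t l) W))) z := by
    intro i
    rw [dd_sumf fun l => smooth_dd (smooth_dd hW _) _, dd_sumf fun l =>
      smooth_dd (smooth_dd (smooth_dd hW _) _) _]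
  simp only [e]
  refine (Finset.abs_sum_le_sum_abs _ _).trans ?_
  have h1 : ∀ i ∈ (Finset.univ : Finset (Fin n)),
      |∑ l, dd (s i) (dd (s i) (dd (t l) (dd (t l) W))) z| ≤ n * B := by
    intro i _
    refine (Finset.abs_sum_le_sum_abs _ _).trans ?_
    refine (Finset.sum_le_sum fun l _ => h _ (hs i) _ (ht l)).trans (le_of_eq ?_)
    rw [Finset.sum_const, Finset.card_univ, Fintype.card_fin, nsmul_eq_mul]
  refine (Finset.sum_le_sum h1).trans (le_of_eq ?_)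
  rw [Finset.sum_const, Finset.card_univ, Fintype.card_fin, nsmul_eq_mul]
  ring

theorem lx_dd (W : VV n → ℝ) : lx W = fun z => ∑ i, dd (Pi.single i 1, 0)
    (dd (Pi.single i 1, 0) W) z := rfl

theorem ly_dd (W : VV n → ℝ) : ly W = fun z => ∑ i, dd (0, Pi.single i 1)
    (dd (0, Pi.single i 1) W) z := rfl

/-- The fourth derivatives. -/
theorem w4 {u : VV n → ℝ} {w : Fn} {z : VV n} {Cs Cd ρ : ℝ} (hu : ContDiff ℝ ∞ u)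
    (hw : FnD w) (hφ : ContDiff ℝ ∞ w.φ) (hΨ : ContDiff ℝ ∞ w.Ψ)
    (hCd : 0 ≤ Cd) (f3 : |w.φ₃ (u z)| ≤ Cd * w.φ₂ (u z)) (f4 : |w.φ₄ (u z)| ≤ Cd * w.φ₂ (u z))
    (f1 : 0 ≤ w.φ₁ (u z)) (f2 : 1 ≤ w.φ₂ (u z)) (hz : qq z ≤ 1)
    (p0 : |w.Ψ (qq z)| ≤ Cs) (p1 : |w.Ψ₁ (qq z)| ≤ Cs) (p2 : |w.Ψ₂ (qq z)| ≤ Cs)
    (p3 : |w.Ψ₃ (qq z)| ≤ Cs) (p4 : |w.Ψ₄ (qq z)| ≤ Cs) (U : JB u z 2 ρ ρ ρ) (ρ0 : 0 ≤ ρ)
    (ρ1 : ρ ≤ 1) (hN : w.φ₁ (u z) * ρ ≤ w.φ₂ (u z)) {a b c d : VV n}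
    (ha : a ∈ Dir n) (hb : b ∈ Dir n) (hc : c ∈ Dir n) (hd : d ∈ Dir n) :
    |dd d (dd c (dd b (dd a (W0 u w)))) z| ≤ 625 * Cs * Real.exp (u z) +
      (15 + 40 * Cd) * w.φ₂ (u z) := by
  have eφ : ∀ s, iteratedDeriv 0 w.φ s = w.φ s ∧ iteratedDeriv 1 w.φ s = w.φ₁ s ∧
      iteratedDeriv 2 w.φ s = w.φ₂ s ∧ iteratedDeriv 3 w.φ s = w.φ₃ s ∧
      iteratedDeriv 4 w.φ s = w.φ₄ s := by
    have h1 : iteratedDeriv 1 w.φ = w.φ₁ := by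
      rw [iteratedDeriv_one]; exact funext fun s => (hw.a1 s).deriv
    have h2 : iteratedDeriv 2 w.φ = w.φ₂ := by
      rw [iteratedDeriv_succ, h1]; exact funext fun s => (hw.a2 s).deriv
    have h3 : iteratedDeriv 3 w.φ = w.φ₃ := by
      rw [iteratedDeriv_succ, h2]; exact funext fun s => (hw.a3 s).deriv
    have h4 : iteratedDeriv 4 w.φ = w.φ₄ := by
      rw [iteratedDeriv_succ, h3]; exact funext fun s => (hw.a4 s).deriv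
    intro s
    rw [iteratedDeriv_zero, h1, h2, h3, h4]
    exact ⟨rfl, rfl, rfl, rfl, rfl⟩
  have eΨ : ∀ s, iteratedDeriv 0 w.Ψ s = w.Ψ s ∧ iteratedDeriv 1 w.Ψ s = w.Ψ₁ s ∧
      iteratedDeriv 2 w.Ψ s = w.Ψ₂ s ∧ iteratedDeriv 3 w.Ψ s = w.Ψ₃ s ∧
      iteratedDeriv 4 w.Ψ s = w.Ψ₄ s := by
    have h1 : iteratedDeriv 1 w.Ψ = w.Ψ₁ := by
      rw [iteratedDeriv_one]; exact funext fun s => (hw.b1 s).deriv
    have h2 : iteratedDeriv 2 w.Ψ = w.Ψ₂ := by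
      rw [iteratedDeriv_succ, h1]; exact funext fun s => (hw.b2 s).deriv
    have h3 : iteratedDeriv 3 w.Ψ = w.Ψ₃ := by
      rw [iteratedDeriv_succ, h2]; exact funext fun s => (hw.b3 s).deriv
    have h4 : iteratedDeriv 4 w.Ψ = w.Ψ₄ := by
      rw [iteratedDeriv_succ, h3]; exact funext fun s => (hw.b4 s).deriv
    intro s
    rw [iteratedDeriv_zero, h1, h2, h3, h4]
    exact ⟨rfl, rfl, rfl, rfl, rfl⟩
  have E0 := Real.exp_pos (u z)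
  have chE : Chn fun _ : ℕ => Real.exp := ⟨fun _ s => Real.hasDerivAt_exp s⟩
  have jφ := jb_cmp hu (chn_of hφ) U ρ0 (by linarith) (F₁ := w.φ₁ (u z)) (F₂ := w.φ₂ (u z))
    (F₃ := Cd * w.φ₂ (u z)) (F₄ := Cd * w.φ₂ (u z))
    (by rw [(eφ _).2.1, abs_of_nonneg f1]) (by rw [(eφ _).2.2.1, abs_of_pos (by linarith)])
    (by rw [(eφ _).2.2.2.1]; exact f3) (by rw [(eφ _).2.2.2.2]; exact f4)
  have jE := jb_cmp hu chE U ρ0 (by linarith) (F₁ := Real.exp (u z)) (F₂ := Real.exp (u z))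
    (F₃ := Real.exp (u z)) (F₄ := Real.exp (u z)) (abs_of_pos E0).le (abs_of_pos E0).le
    (abs_of_pos E0).le (abs_of_pos E0).le
  have jΨ := jb_cmp (contDiff_qq (n := n)) (chn_of hΨ) (jb_qq hz) (by norm_num) le_rfl
    (F₁ := Cs) (F₂ := Cs) (F₃ := Cs) (F₄ := Cs) (by rw [(eΨ _).2.1]; exact p1)
    (by rw [(eΨ _).2.2.1]; exact p2) (by rw [(eΨ _).2.2.2.1]; exact p3)
    (by rw [(eΨ _).2.2.2.2]; exact p4)
  have sφ : ContDiff ℝ ∞ (fun z : VV n => iteratedDeriv 0 w.φ (u z)) :=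
    sm_cmp hu (chn_of hφ) 0
  have sE : ContDiff ℝ ∞ (fun z : VV n => Real.exp (u z)) := sm_cmp hu chE 0
  have sΨ : ContDiff ℝ ∞ (fun z : VV n => iteratedDeriv 0 w.Ψ (qq z)) :=
    sm_cmp contDiff_qq (chn_of hΨ) 0
  have sQ := sE.mul sΨ
  have eW : W0 u w = fun z => iteratedDeriv 0 w.φ (u z) +
      Real.exp (u z) * iteratedDeriv 0 w.Ψ (qq z) := by
    funext z
    rw [(eφ _).1, (eΨ _).1]
    rfl
  rw [eW, ad1 sφ sQ, ad1 (smooth_dd sφ a) (smooth_dd sQ a),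
    ad1 (smooth_dd (smooth_dd sφ a) b) (smooth_dd (smooth_dd sQ a) b),
    ad1 (smooth_dd (smooth_dd (smooth_dd sφ a) b) c) (smooth_dd (smooth_dd (smooth_dd sQ a) b) c)]
  have K0 : 0 ≤ w.φ₂ (u z) := by linarith
  have CK : 0 ≤ Cd * w.φ₂ (u z) := mul_nonneg hCd K0
  have ρE : Real.exp (u z) * ρ ≤ Real.exp (u z) := mul_le_of_le_one_right E0.le ρ1
  have jE' := jE.mono (C₁ := Real.exp (u z) * 2) (C₂ := Real.exp (u z) * 5)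
    (C₃ := Real.exp (u z) * 15) (C₄ := Real.exp (u z) * 55) le_rfl (by linarith) (by linarith)
    (by linarith)
  have jΨ' := jΨ.mono (C₁ := Cs * 2) (C₂ := Cs * 6) (C₃ := Cs * 22) (C₄ := Cs * 94) le_rfl
    (by linarith) (by linarith) (by linarith)
  have k1 : |dd d (dd c (dd b (dd a (fun z => iteratedDeriv 0 w.φ (u z))))) z| ≤
      (15 + 40 * Cd) * w.φ₂ (u z) := by
    refine (jφ.j4 d hd c hc b hb a ha).trans ?_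
    have h1 : Cd * w.φ₂ (u z) * (24 * ρ) ≤ Cd * w.φ₂ (u z) * 24 :=
      mul_le_mul_of_nonneg_left (by linarith) CK
    have h2 : w.φ₂ (u z) * (14 * ρ) ≤ w.φ₂ (u z) * 14 :=
      mul_le_mul_of_nonneg_left (by linarith) K0
    linarith
  have k2 := jb_pr4 sE sΨ jE' jΨ' (abs_of_pos E0).le
    (show |iteratedDeriv 0 w.Ψ (qq z)| ≤ Cs by rw [(eΨ _).1]; exact p0) ha hb hc hd
  exact (ab2 k1 k2).trans (le_of_eq (by ring))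

/-- **(fou)** the fourth order terms. -/
theorem fou (n : ℕ) (Cs : ℝ) (hCs : 0 < Cs) : ∃ C : ℝ, 0 < C ∧ ∀ Cd : ℝ, 0 ≤ Cd →
    ∀ (u : VV n → ℝ) (w : Fn) (z : VV n) (ρ : ℝ), ContDiff ℝ ∞ u → FnD w →
    ContDiff ℝ ∞ w.φ → ContDiff ℝ ∞ w.Ψ →
    |w.φ₃ (u z)| ≤ Cd * w.φ₂ (u z) → |w.φ₄ (u z)| ≤ Cd * w.φ₂ (u z) →
    0 ≤ w.φ₁ (u z) → 1 ≤ w.φ₂ (u z) → qq z ≤ 1 →
    |w.Ψ (qq z)| ≤ Cs → |w.Ψ₁ (qq z)| ≤ Cs → |w.Ψ₂ (qq z)| ≤ Cs → |w.Ψ₃ (qq z)| ≤ Cs →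
    |w.Ψ₄ (qq z)| ≤ Cs →
    (∀ a ∈ Dir n, |dd a u z| ≤ 2) → (∀ a ∈ Dir n, ∀ b ∈ Dir n, |dd a (dd b u) z| ≤ ρ) →
    (∀ a ∈ Dir n, ∀ b ∈ Dir n, ∀ c ∈ Dir n, |dd a (dd b (dd c u)) z| ≤ ρ) →
    (∀ a ∈ Dir n, ∀ b ∈ Dir n, ∀ c ∈ Dir n, ∀ d ∈ Dir n,
      |dd a (dd b (dd c (dd d u))) z| ≤ ρ) →
    0 ≤ ρ → ρ ≤ 1 → w.φ₁ (u z) * ρ ≤ w.φ₂ (u z) →
    |lx (LX u w) z| ≤ C * (Real.exp (u z) + (1 + Cd) * w.φ₂ (u z)) ∧
    |lx (LY u w) z| ≤ C * (Real.exp (u z) + (1 + Cd) * w.φ₂ (u z)) ∧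
    |ly (LY u w) z| ≤ C * (Real.exp (u z) + (1 + Cd) * w.φ₂ (u z)) := by
  refine ⟨n ^ 2 * (625 * Cs + 40) + 1, by positivity, ?_⟩
  intro Cd hCd u w z ρ hu hw hφ hΨ f3 f4 f1 f2 hz p0 p1 p2 p3 p4 u1 u2 u3 u4 ρ0 ρ1 hN
  have E0 := Real.exp_pos (u z)
  have K0 : 0 ≤ w.φ₂ (u z) := by linarith
  have U : JB u z 2 ρ ρ ρ := ⟨u1, u2, u3, u4⟩
  have sW : ContDiff ℝ ∞ (W0 u w) :=
    (hφ.comp hu).add ((Real.contDiff_exp.comp hu).mul (hΨ.comp contDiff_qq))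
  have B : ∀ a ∈ Dir n, ∀ b ∈ Dir n, |dd a (dd a (dd b (dd b (W0 u w)))) z| ≤
      625 * Cs * Real.exp (u z) + (15 + 40 * Cd) * w.φ₂ (u z) := fun a ha b hb =>
    w4 hu hw hφ hΨ hCd f3 f4 f1 f2 hz p0 p1 p2 p3 p4 U ρ0 ρ1 hN hb hb ha ha
  have fin : (n : ℝ) ^ 2 * (625 * Cs * Real.exp (u z) + (15 + 40 * Cd) * w.φ₂ (u z)) ≤
      ((n : ℝ) ^ 2 * (625 * Cs + 40) + 1) * (Real.exp (u z) + (1 + Cd) * w.φ₂ (u z)) := by
    have a1 : 0 ≤ (n : ℝ) ^ 2 * Real.exp (u z) := by positivity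
    have a2 : 0 ≤ (n : ℝ) ^ 2 * w.φ₂ (u z) := by positivity
    have a3 : 0 ≤ (n : ℝ) ^ 2 * (Cd * w.φ₂ (u z)) := by positivity
    have a4 : 0 ≤ Cs * ((n : ℝ) ^ 2 * w.φ₂ (u z)) := by positivity
    have a5 : 0 ≤ Cs * ((n : ℝ) ^ 2 * (Cd * w.φ₂ (u z))) := by positivity
    have a6 : 0 ≤ Cd * w.φ₂ (u z) := by positivity
    have e : ((n : ℝ) ^ 2 * (625 * Cs + 40) + 1) * (Real.exp (u z) + (1 + Cd) * w.φ₂ (u z)) -
        (n : ℝ) ^ 2 * (625 * Cs * Real.exp (u z) + (15 + 40 * Cd) * w.φ₂ (u z)) =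
        40 * ((n : ℝ) ^ 2 * Real.exp (u z)) + 25 * ((n : ℝ) ^ 2 * w.φ₂ (u z)) +
        625 * (Cs * ((n : ℝ) ^ 2 * w.φ₂ (u z))) +
        625 * (Cs * ((n : ℝ) ^ 2 * (Cd * w.φ₂ (u z)))) + Real.exp (u z) + w.φ₂ (u z) +
        Cd * w.φ₂ (u z) := by ring
    linarith
  refine ⟨?_, ?_, ?_⟩
  · rw [← lx_W hu hw]
    exact (lap_le sW B (fun i => (Pi.single i 1, 0)) (fun i => (Pi.single i 1, 0)) dirx
      dirx).trans fin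
  · rw [← ly_W hu hw]
    exact (lap_le sW B (fun i => (Pi.single i 1, 0)) (fun i => (0, Pi.single i 1)) dirx
      diry).trans fin
  · rw [← ly_W hu hw]
    exact (lap_le sW B (fun i => (0, Pi.single i 1)) (fun i => (0, Pi.single i 1)) diry
      diry).trans fin

end Vale.Agent.P088.R2.H406.U
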